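import Mathlib

namespace Vale.Agent.Results.P201.DominantCoeff

open Finset

/-- A finite nonempty subset of a group that is stable under left multiplication by `t`
forces `t` to have finite order. -/
theorem isOfFinOrder_of_left_stable {G : Type*} [Group G] (S : Finset G) (hS : S.Nonempty)
    (t : G) (ht : ∀ s ∈ S, t * s ∈ S) : IsOfFinOrder t := by
  obtain ⟨s, hs⟩ := hS
  have hmem : ∀ n : ℕ, t ^ n * s ∈ S := by
    intro n
    induction n with
    | zero => simpa using hs
    | succ n ih =>
      have := ht _ ih
      rwa [← mul_assoc, ← pow_succ'] at this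
  by_contra hfin
  have hinj : Function.Injective (fun n : ℕ => t ^ n) :=
    injective_pow_iff_not_isOfFinOrder.mpr hfin
  have hinj' : Function.Injective (fun n : ℕ => t ^ n * s) := by
    intro a b hab
    exact hinj (mul_right_cancel hab)
  have : Set.InjOn (fun n : ℕ => t ^ n * s) (Set.univ : Set ℕ) := hinj'.injOn
  have hfinite : (Set.univ : Set ℕ).Finite := by
    apply Set.Finite.of_finite_image _ this
    exact S.finite_toSet.subset (by rintro _ ⟨n, _, rfl⟩; exact hmem n)
  exact Set.infinite_univ hfinite

/-- Core maximum principle.  `a` and `b` are finitely supported functions on `G`, `act g k`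
is the index of the coefficient of `b` paired with `a g` in the `k`-th coefficient of the product. -/
theorem core {K G : Type*} [Field K] [Group G] [DecidableEq G]
    (htf : ∀ g : G, IsOfFinOrder g → g = 1)
    (v : AbsoluteValue K ℝ) (a b : G →₀ K) (g₀ : G) (ha : a ≠ 0)
    (hdom : ∑ g ∈ a.support.erase g₀, v (a g) ≤ v (a g₀))
    (hzero : ∀ k : G, ∑ g ∈ a.support, a g * b (g⁻¹ * k) = 0) : b = 0 := by
  by_contra hb
  have hbs : b.support.Nonempty := Finsupp.support_nonempty_iff.mpr hb
  -- the dominant coefficient is nonzero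
  have ha0 : 0 < v (a g₀) := by
    by_contra hle
    have h0 : v (a g₀) = 0 := le_antisymm (not_lt.mp hle) (v.nonneg _)
    apply ha
    ext g
    by_cases hg : g = g₀
    · subst hg; simpa using (v.eq_zero).mp h0
    · by_contra hne
      have hmem : g ∈ a.support.erase g₀ := by
        simp [hg, Finsupp.mem_support_iff]; exact hne
      have h1 : v (a g) ≤ ∑ g ∈ a.support.erase g₀, v (a g) :=
        Finset.single_le_sum (f := fun g => v (a g)) (fun i _ => v.nonneg _) hmem
      have h2 : v (a g) ≤ 0 := by linarith
      have h3 : v (a g) = 0 := le_antisymm h2 (v.nonneg _)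
      exact hne ((v.eq_zero).mp h3)
  have hg₀ : g₀ ∈ a.support := by
    rw [Finsupp.mem_support_iff]
    intro h
    rw [h, map_zero] at ha0
    exact lt_irrefl _ ha0
  -- maximal absolute value of a coefficient of b
  obtain ⟨h₀, hh₀, hmax⟩ := Finset.exists_max_image b.support (fun h => v (b h)) hbs
  set M := v (b h₀) with hM
  have hMpos : 0 < M := v.pos (Finsupp.mem_support_iff.mp hh₀)
  have hle : ∀ h : G, v (b h) ≤ M := by
    intro h
    by_cases hh : h ∈ b.support
    · exact hmax h hh
    · rw [Finsupp.notMem_support_iff.mp hh, map_zero]; exact hMpos.le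
  let S : Finset G := b.support.filter (fun h => v (b h) = M)
  have hSne : S.Nonempty := ⟨h₀, by simp [S, hM]; exact Finsupp.mem_support_iff.mp hh₀⟩
  have hSmem : ∀ h : G, h ∈ S ↔ v (b h) = M := by
    intro h
    simp only [S, Finset.mem_filter, Finsupp.mem_support_iff]
    constructor
    · exact fun h => h.2
    · intro hh
      refine ⟨?_, hh⟩
      intro h0
      rw [h0, map_zero] at hh
      exact hMpos.ne hh
  -- key step
  have key : ∀ s ∈ S, ∀ g ∈ a.support.erase g₀, g⁻¹ * g₀ * s ∈ S := by
    intro s hs
    have hsM : v (b s) = M := (hSmem s).mp hs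
    have hz := hzero (g₀ * s)
    rw [← Finset.add_sum_erase _ _ hg₀] at hz
    have hz1 : a g₀ * b s = - ∑ g ∈ a.support.erase g₀, a g * b (g⁻¹ * (g₀ * s)) := by
      have : g₀⁻¹ * (g₀ * s) = s := by group
      rw [this] at hz
      linear_combination hz
    have hz2 : v (a g₀) * M ≤ ∑ g ∈ a.support.erase g₀, v (a g) * v (b (g⁻¹ * (g₀ * s))) := by
      calc v (a g₀) * M = v (a g₀ * b s) := by rw [map_mul, hsM]
        _ = v (∑ g ∈ a.support.erase g₀, a g * b (g⁻¹ * (g₀ * s))) := by rw [hz1, v.map_neg]
        _ ≤ ∑ g ∈ a.support.erase g₀, v (a g * b (g⁻¹ * (g₀ * s))) := v.sum_le _ _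
        _ = ∑ g ∈ a.support.erase g₀, v (a g) * v (b (g⁻¹ * (g₀ * s))) := by
            simp only [map_mul]
    have hz3 : ∑ g ∈ a.support.erase g₀, v (a g) * (M - v (b (g⁻¹ * (g₀ * s)))) ≤ 0 := by
      have : ∑ g ∈ a.support.erase g₀, v (a g) * (M - v (b (g⁻¹ * (g₀ * s))))
          = (∑ g ∈ a.support.erase g₀, v (a g)) * M
            - ∑ g ∈ a.support.erase g₀, v (a g) * v (b (g⁻¹ * (g₀ * s))) := by
        rw [Finset.sum_mul, ← Finset.sum_sub_distrib]
        apply Finset.sum_congr rfl
        intro g _
        ring
      rw [this]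
      have : (∑ g ∈ a.support.erase g₀, v (a g)) * M ≤ v (a g₀) * M :=
        mul_le_mul_of_nonneg_right hdom hMpos.le
      linarith
    have hnn : ∀ g ∈ a.support.erase g₀, 0 ≤ v (a g) * (M - v (b (g⁻¹ * (g₀ * s)))) := by
      intro g _
      exact mul_nonneg (v.nonneg _) (sub_nonneg.mpr (hle _))
    have hz4 : ∑ g ∈ a.support.erase g₀, v (a g) * (M - v (b (g⁻¹ * (g₀ * s)))) = 0 :=
      le_antisymm hz3 (Finset.sum_nonneg hnn)
    intro g hg
    have h5 := (Finset.sum_eq_zero_iff_of_nonneg hnn).mp hz4 g hg
    have hag : a g ≠ 0 := Finsupp.mem_support_iff.mp (Finset.mem_of_mem_erase hg)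
    have hvag : v (a g) ≠ 0 := (v.pos hag).ne'
    have h6 : M - v (b (g⁻¹ * (g₀ * s))) = 0 := by
      rcases mul_eq_zero.mp h5 with h | h
      · exact absurd h hvag
      · exact h
    rw [hSmem, mul_assoc]
    linarith
  -- there is another element in the support
  have hex : (a.support.erase g₀).Nonempty := by
    by_contra hemp
    rw [Finset.not_nonempty_iff_eq_empty] at hemp
    have hz := hzero (g₀ * h₀)
    rw [← Finset.add_sum_erase _ _ hg₀, hemp] at hz
    have : g₀⁻¹ * (g₀ * h₀) = h₀ := by group
    rw [this] at hz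
    simp only [Finset.sum_empty, add_zero, mul_eq_zero] at hz
    rcases hz with h | h
    · exact (Finsupp.mem_support_iff.mp hg₀) h
    · exact (Finsupp.mem_support_iff.mp hh₀) h
  obtain ⟨g₁, hg₁⟩ := hex
  have hfin : IsOfFinOrder (g₁⁻¹ * g₀) :=
    isOfFinOrder_of_left_stable S hSne _ (fun s hs => key s hs g₁ hg₁)
  have h1 := htf _ hfin
  have : g₁ = g₀ := by
    have := inv_mul_eq_one.mp h1
    exact this
  exact (Finset.ne_of_mem_erase hg₁) this

/-- **Weakly dominant coefficient criterion.**  Let `G` be a torsion-free group, `K` a field with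
an absolute value `v`, and `α ≠ 0` an element of the group algebra `K[G]` one of whose coefficients
weakly dominates the others: `∑_{g ≠ g₀} v (α_g) ≤ v (α_{g₀})`.  Then `α` is neither a left nor a
right zero divisor in `K[G]`. -/
theorem result {K G : Type*} [Field K] [Group G] [DecidableEq G]
    (htf : ∀ g : G, IsOfFinOrder g → g = 1)
    (v : AbsoluteValue K ℝ) (α : MonoidAlgebra K G) (g₀ : G) (hα : α ≠ 0)
    (hdom : ∑ g ∈ α.coeff.support.erase g₀, v (α.coeff g) ≤ v (α.coeff g₀))
    (β : MonoidAlgebra K G) :
    (α * β = 0 → β = 0) ∧ (β * α = 0 → β = 0) := by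
  constructor
  · intro h
    have hb : β.coeff = 0 := by
      apply core htf v α.coeff β.coeff g₀ (by simpa using hα) hdom
      intro k
      have := congrArg (fun x : MonoidAlgebra K G => x.coeff k) h
      simp only [MonoidAlgebra.coeff_mul_apply_left, MonoidAlgebra.coeff_zero,
        Finsupp.coe_zero, Pi.zero_apply] at this
      exact this
    simpa using hb
  · intro h
    -- transport along inversion
    let a' : G →₀ K := Finsupp.equivMapDomain (Equiv.inv G) α.coeff
    let b' : G →₀ K := Finsupp.equivMapDomain (Equiv.inv G) β.coeff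
    have ha'app : ∀ g, a' g = α.coeff g⁻¹ := fun g => by
      simp [a', Finsupp.equivMapDomain_apply]
    have hb'app : ∀ g, b' g = β.coeff g⁻¹ := fun g => by
      simp [b', Finsupp.equivMapDomain_apply]
    have hsupp : a'.support = α.coeff.support.map (Equiv.inv G).toEmbedding := by
      ext g
      simp only [Finsupp.mem_support_iff, ha'app, Finset.mem_map, Equiv.coe_toEmbedding,
        Equiv.inv_apply]
      constructor
      · intro hg
        exact ⟨g⁻¹, hg, inv_inv g⟩
      · rintro ⟨x, hx, rfl⟩
        simpa using hx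
    have hb : b' = 0 := by
      apply core htf v a' b' g₀⁻¹
      · intro h0
        apply hα
        ext g
        have := ha'app g⁻¹
        rw [h0] at this
        simpa using this.symm
      · have herase : a'.support.erase g₀⁻¹
            = (α.coeff.support.erase g₀).map (Equiv.inv G).toEmbedding := by
          rw [hsupp, Finset.map_erase]
          rfl
        rw [herase, Finset.sum_map]
        simpa [ha'app] using hdom
      · intro k
        rw [hsupp, Finset.sum_map]
        have := congrArg (fun x : MonoidAlgebra K G => x.coeff k⁻¹) h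
        simp only [MonoidAlgebra.coeff_mul_apply_right, MonoidAlgebra.coeff_zero,
          Finsupp.coe_zero, Pi.zero_apply] at this
        rw [Finsupp.sum] at this
        rw [← this]
        apply Finset.sum_congr rfl
        intro g _
        simp [ha'app, hb'app, mul_comm]
    ext g
    have := hb'app g⁻¹
    rw [hb] at this
    simpa using this.symm

end Vale.Agent.Results.P201.DominantCoeff
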